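import Vale.Agent.Lib.P039.Toggle

/-!
# Cubic maps with properly 3-coloured faces: Hamiltonicity from linking 4-gons

A cubic map on the vertex set `V` is given by its darts `V × Fin 3`, with the rotation
`nextDart : (v, i) ↦ (v, i + 1)` and the edge involution `α`.  Faces are the orbits of
`faceStep α = nextDart ∘ α`.
-/

namespace Vale.Agent.Lib.P039

open Equiv Equiv.Perm Function

variable {V : Type} [Fintype V] [DecidableEq V]

/-- The rotation at a vertex of a cubic map. -/
def nextDart (d : V × Fin 3) : V × Fin 3 := (d.1, d.2 + 1)

/-- The face permutation: walk along the edge, then turn to the next dart. -/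
def faceStep (α : Perm (V × Fin 3)) (d : V × Fin 3) : V × Fin 3 := nextDart (α d)

/-- The simple graph underlying the cubic map: `v` and `w` are adjacent when some edge of the
map joins them and `v ≠ w`. -/
def mapGraph (α : Perm (V × Fin 3)) : SimpleGraph V :=
  SimpleGraph.fromRel (fun v w => ∃ i j, α (v, i) = (w, j))

/-- `v` and `w` are linked if they lie on a common face of colour `2`, or on a common face whose
length divides `4`.  Being on a common face is expressed by: iterating `faceStep` from a dart
at `v` reaches a dart at `w`. -/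
def SquareLink (α : Perm (V × Fin 3)) (col : V × Fin 3 → Fin 3) (v w : V) : Prop :=
  ∃ (i j : Fin 3) (n : ℕ), (faceStep α)^[n] (v, i) = (w, j) ∧
    (col (v, i) = 2 ∨ (faceStep α)^[4] (v, i) = (v, i))

/-- Abstract switching argument: maximise the same-cycle relation over the permutations that
follow `τ`, or `m` at points with `p (p v) = v`, where `p = τ⁻¹ ∘ m`. -/
theorem exists_maximal_switch (τ : Perm V) (m : V → V) :
    ∃ ρ : Perm V, (∀ v, ρ v = τ v ∨ ρ v = m v) ∧
      (∀ x, τ⁻¹ (m (τ⁻¹ (m x))) = x → ρ.SameCycle x (τ⁻¹ (m x))) ∧
      ∀ v, ρ.SameCycle v (τ v) := by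
  classical
  set p : V → V := fun v => τ⁻¹ (m v) with hp
  have hτp : ∀ v, τ (p v) = m v := fun v => by simp [hp]
  let Q : Perm V → Prop := fun ρ => ∀ v, ρ v = τ v ∨ (ρ v = m v ∧ p (p v) = v)
  let N : Perm V → ℕ := fun ρ =>
    (Finset.univ.filter (fun ab : V × V => ρ.SameCycle ab.1 ab.2)).card
  have hne : (Finset.univ.filter Q).Nonempty :=
    ⟨τ, by simp only [Finset.mem_filter, Finset.mem_univ, true_and]; exact fun v => Or.inl rfl⟩
  obtain ⟨ρ, hρ, hmax⟩ := Finset.exists_max_image _ N hne
  simp only [Finset.mem_filter, Finset.mem_univ, true_and] at hρ hmax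
  have hsame : ∀ x, p (p x) = x → ρ.SameCycle x (p x) := by
    intro x hx
    by_contra hcon
    set y := p x with hy
    have hxy : x ≠ y := by
      intro h
      apply hcon
      rw [← h]
    have hQ' : Q (ρ * Equiv.swap x y) := by
      intro v
      by_cases hvx : v = x
      · rw [hvx]
        have h1 : (ρ * Equiv.swap x y) x = ρ y := by simp
        rw [h1]
        rcases hρ y with h | ⟨h, _⟩
        · right
          exact ⟨by rw [h]; exact hτp x, hx⟩
        · left
          rw [h, ← hτp y, hx]
      · by_cases hvy : v = y
        · rw [hvy]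
          have h1 : (ρ * Equiv.swap x y) y = ρ x := by simp
          rw [h1]
          rcases hρ x with h | ⟨h, _⟩
          · right
            refine ⟨by rw [h, ← hτp y, hx], ?_⟩
            rw [hx]
          · left
            rw [h]
            exact (hτp x).symm
        · have h1 : (ρ * Equiv.swap x y) v = ρ v := by
            simp [swap_apply_of_ne_of_ne hvx hvy]
          rw [h1]
          exact hρ v
    have hle := hmax _ hQ'
    have hlt : N ρ < N (ρ * Equiv.swap x y) := by
      apply Finset.card_lt_card
      refine ⟨?_, ?_⟩
      · intro ab hab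
        simp only [Finset.mem_filter, Finset.mem_univ, true_and] at hab ⊢
        exact sameCycle_toggle_mono ρ hcon hab
      · intro hsub
        have hmem : (x, y) ∈ Finset.univ.filter
            (fun ab : V × V => (ρ * Equiv.swap x y).SameCycle ab.1 ab.2) := by
          simp only [Finset.mem_filter, Finset.mem_univ, true_and]
          exact sameCycle_toggle_self ρ hcon
        have := hsub hmem
        simp only [Finset.mem_filter, Finset.mem_univ, true_and] at this
        exact hcon this
    omega
  refine ⟨ρ, ?_, hsame, ?_⟩
  · intro v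
    rcases hρ v with h | ⟨h, _⟩
    · exact Or.inl h
    · exact Or.inr h
  · intro v
    rcases hρ v with h | ⟨h, hv⟩
    · rw [← h]
      exact (sameCycle_apply_right).2 (SameCycle.refl _ _)
    · have hvy := hsame v hv
      rcases hρ (p v) with h2 | ⟨h2, _⟩
      · have h3 : ρ (p v) = ρ v := by rw [h2, h, hτp]
        have h4 : p v = v := ρ.injective h3
        rw [h4] at h2
        rw [← h2]
        exact (sameCycle_apply_right).2 (SameCycle.refl _ _)
      · have h3 : τ v = ρ (p v) := by rw [h2, ← hτp (p v), hv]
        rw [h3]
        exact hvy.trans ((sameCycle_apply_right).2 (SameCycle.refl _ _))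

/-- The main theorem: a cubic map with properly 3-coloured faces, in which any two vertices are
connected by a chain of links (common colour-2 face, or common face of length dividing 4),
has a Hamiltonian underlying graph. -/
theorem isHamiltonian_of_links (α : Perm (V × Fin 3)) (hα : ∀ d, α (α d) = d)
    (col : V × Fin 3 → Fin 3)
    (hface : ∀ d, col (faceStep α d) = col d)
    (hvert : ∀ v, Injective fun i => col (v, i))
    (hlink : ∀ a b, Relation.EqvGen (SquareLink α col) a b)
    (hcard : 3 ≤ Fintype.card V) :
    (mapGraph α).IsHamiltonian := by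
  classical
  -- notation
  set φ := faceStep α with hφ
  have hφinj : Injective φ := by
    intro a b hab
    have h : nextDart (α a) = nextDart (α b) := hab
    have h' : α a = α b := by
      simp only [nextDart, Prod.mk.injEq, add_left_inj] at h
      exact Prod.ext h.1 h.2
    exact α.injective h'
  have hiter4 : ∀ (n : ℕ) d, col (φ^[n] d) = col d := by
    intro n
    induction n with
    | zero => intro d; rfl
    | succ n ih =>
      intro d
      rw [iterate_succ_apply', hface, ih]
  have hcolα : ∀ x, col (α x) = col (nextDart x) := by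
    intro x
    have h1 := hface (α x)
    have h2 : φ (α x) = nextDart x := by
      show nextDart (α (α x)) = _
      rw [hα]
    rw [h2] at h1
    exact h1.symm
  have hσ3 : ∀ d : V × Fin 3, nextDart (nextDart (nextDart d)) = d := by
    rintro ⟨v, i⟩
    have : i + 1 + 1 + 1 = i := by
      revert i
      decide
    simp [nextDart, this]
  have hσne : ∀ d : V × Fin 3, col (nextDart d) ≠ col d := by
    rintro ⟨v, i⟩ h
    exact (by decide : ∀ i : Fin 3, i + 1 ≠ i) i (hvert v (a₁ := i + 1) (a₂ := i) h)
  have hσne2 : ∀ d : V × Fin 3, col (nextDart (nextDart d)) ≠ col d := by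
    rintro ⟨v, i⟩ h
    exact (by decide : ∀ i : Fin 3, i + 1 + 1 ≠ i) i (hvert v (a₁ := i + 1 + 1) (a₂ := i) h)
  have hsurj : ∀ v (c : Fin 3), ∃ i, col (v, i) = c := fun v =>
    Finite.injective_iff_surjective.1 (hvert v)
  choose ι hι using fun v => hsurj v 2
  have hιuniq : ∀ v j, col (v, j) = 2 → j = ι v := fun v j hj =>
    hvert v (a₁ := j) (a₂ := ι v) (by simp only [hj, hι])
  let d : V → V × Fin 3 := fun v => (v, ι v)
  have hd : ∀ v, col (d v) = 2 := hι
  have hd_uniq : ∀ x : V × Fin 3, col x = 2 → x = d x.1 := by
    rintro ⟨v, j⟩ hj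
    have := hιuniq v j hj
    simp only [d, this]
  let e : V → V × Fin 3 := fun v => nextDart (d v)
  let t : V → V × Fin 3 := fun v => nextDart (e v)
  have he1 : ∀ v, (e v).1 = v := fun v => rfl
  have ht1 : ∀ v, (t v).1 = v := fun v => rfl
  have he2 : ∀ v, col (e v) ≠ 2 := fun v => by
    have := hσne (d v)
    rwa [hd] at this
  have ht2 : ∀ v, col (t v) ≠ 2 := fun v => by
    have := hσne2 (d v)
    rwa [hd] at this
  -- the three darts at a vertex
  have hthree : ∀ x : V × Fin 3, x = d x.1 ∨ x = e x.1 ∨ x = t x.1 := by
    rintro ⟨v, j⟩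
    have key : ∀ a b : Fin 3, b = a ∨ b = a + 1 ∨ b = a + 1 + 1 := by decide
    rcases key (ι v) j with h | h | h
    · left
      simp only [d, h]
    · right; left
      simp only [e, d, nextDart, h]
    · right; right
      simp only [t, e, d, nextDart, h]
  -- `τ`
  let τ0 : V → V := fun v => (α (d v)).1
  have hφd : ∀ v, φ (d v) = d (τ0 v) := by
    intro v
    have h : col (φ (d v)) = 2 := by rw [hface, hd]
    exact hd_uniq _ h
  have hτ0inj : Injective τ0 := by
    intro a b hab
    have h : φ (d a) = φ (d b) := by rw [hφd, hφd, hab]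
    have := hφinj h
    exact congrArg Prod.fst this
  let τ : Perm V := Equiv.ofBijective τ0 (Finite.injective_iff_bijective.1 hτ0inj)
  have hτ : ∀ v, τ v = τ0 v := fun v => rfl
  -- `m`
  let m : V → V := fun v => (α (e v)).1
  have hem : ∀ v, e (m v) = α (e v) := by
    intro v
    set x := α (e v) with hx
    have hcx : col x ≠ 2 := by
      rw [hx, hcolα]
      exact ht2 v
    have hcσx : col (nextDart x) ≠ 2 := by
      have h : col (φ (e v)) = col (e v) := hface _
      have h' : φ (e v) = nextDart x := rfl
      rw [← h', h]
      exact he2 v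
    have hc : col (nextDart (nextDart x)) = 2 := by
      have h1 := hσne x
      have h2 := hσne2 x
      have h3 := hσne (nextDart x)
      generalize col x = a at *
      generalize col (nextDart x) = b at *
      generalize col (nextDart (nextDart x)) = c at *
      revert a b c
      decide
    have h := hd_uniq _ hc
    have h2 : d (m v) = nextDart (nextDart x) := h.symm
    show nextDart (d (m v)) = x
    rw [h2, hσ3]
  have hmm : ∀ v, m (m v) = v := by
    intro v
    show (α (e (m v))).1 = v
    rw [hem, hα]
    rfl
  -- `φ` on `e` and `t`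
  have hφe : ∀ v, φ (e v) = t (m v) := by
    intro v
    show nextDart (α (e v)) = nextDart (e (m v))
    rw [hem]
  have hαt : ∀ w, α (t w) = d (τ⁻¹ w) := by
    intro w
    set u := τ⁻¹ w with hu
    have hw : τ u = w := by simp [hu]
    have h1 : nextDart (α (d u)) = d w := by
      have := hφd u
      rw [← hτ, hw] at this
      exact this
    have h2 : t w = α (d u) := by
      show nextDart (nextDart (d w)) = α (d u)
      rw [← h1, hσ3]
    rw [h2, hα]
  have hφt : ∀ w, φ (t w) = e (τ⁻¹ w) := by
    intro w
    show nextDart (α (t w)) = nextDart (d (τ⁻¹ w))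
    rw [hαt]
  -- the switching permutation
  obtain ⟨ρ, hρ1, hρ2, hρ3⟩ := exists_maximal_switch τ m
  set p : V → V := fun v => τ⁻¹ (m v) with hp
  have hτp : ∀ v, τ (p v) = m v := fun v => by simp [hp]
  have hφ2 : ∀ v, φ (φ (e v)) = e (p v) := by
    intro v
    rw [hφe, hφt]
  have hφ4 : ∀ v, φ^[4] (e v) = e (p (p v)) := by
    intro v
    show φ (φ (φ (φ (e v)))) = e (p (p v))
    rw [hφ2, hφ2]
  -- all vertices of a colour-2 face are in one cycle
  have hcol2 : ∀ (n : ℕ) (y : V × Fin 3), col y = 2 → ρ.SameCycle y.1 (φ^[n] y).1 := by
    intro n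
    induction n with
    | zero => intro y _; exact SameCycle.refl _ _
    | succ n ih =>
      intro y hy
      rw [iterate_succ_apply']
      have hz : col (φ^[n] y) = 2 := by rw [hiter4, hy]
      have hz' := hd_uniq _ hz
      have h3 : (φ (φ^[n] y)).1 = τ (φ^[n] y).1 := by
        conv_lhs => rw [hz', hφd]
        rfl
      rw [h3]
      exact (ih y hy).trans (hρ3 _)
  -- all vertices of a square are in one cycle
  have hsqcyc : ∀ u, p (p u) = u → ∀ (n : ℕ),
      ∀ z, (z = e u ∨ z = t (m u) ∨ z = e (p u) ∨ z = t (m (p u))) →
        (φ^[n] z = e u ∨ φ^[n] z = t (m u) ∨ φ^[n] z = e (p u) ∨ φ^[n] z = t (m (p u))) := by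
    intro u hu n
    induction n with
    | zero => intro z hz; exact hz
    | succ n ih =>
      intro z hz
      rw [iterate_succ_apply']
      rcases ih z hz with h | h | h | h
      · right; left
        rw [h, hφe]
      · right; right; left
        rw [h, hφt]
      · right; right; right
        rw [h, hφe]
      · left
        rw [h, hφt]
        show e (p (p u)) = e u
        rw [hu]
  have hsqvert : ∀ u, p (p u) = u → ∀ z,
      (z = e u ∨ z = t (m u) ∨ z = e (p u) ∨ z = t (m (p u))) → ρ.SameCycle u z.1 := by
    intro u hu z hz
    have h1 : ρ.SameCycle u (p u) := hρ2 u hu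
    have h2 : m u = τ (p u) := (hτp u).symm
    have h3 : m (p u) = τ u := by rw [← hτp (p u), hu]
    rcases hz with h | h | h | h
    · rw [h]
      exact SameCycle.refl _ _
    · rw [h, ht1, h2]
      exact h1.trans (hρ3 _)
    · rw [h, he1]
      exact h1
    · rw [h, ht1, h3]
      exact hρ3 _
  -- links are inside one cycle
  have hlinkcyc : ∀ a b, SquareLink α col a b → ρ.SameCycle a b := by
    rintro a b ⟨i, j, n, hn, hc⟩
    rcases hc with hc | hc
    · have := hcol2 n (a, i) hc
      rw [show φ^[n] (a, i) = (b, j) from hn] at this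
      exact this
    · -- a dart of a square of colour other than `2`, or of colour `2`
      by_cases hc2 : col (a, i) = 2
      · have := hcol2 n (a, i) hc2
        rw [show φ^[n] (a, i) = (b, j) from hn] at this
        exact this
      · have hcases : (a, i) = e a ∨ (a, i) = t a := by
          rcases hthree (a, i) with h | h | h
          · exfalso
            apply hc2
            rw [h]
            exact hd _
          · exact Or.inl h
          · exact Or.inr h
        -- find the base vertex `u` with dart `e u` of the square
        obtain ⟨u, hu, hz⟩ : ∃ u, p (p u) = u ∧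
            ((a, i) = e u ∨ (a, i) = t (m u) ∨ (a, i) = e (p u) ∨ (a, i) = t (m (p u))) := by
          rcases hcases with h | h
          · refine ⟨a, ?_, Or.inl h⟩
            have h4 : φ^[4] (e a) = e a := by rw [← h]; exact hc
            rw [hφ4] at h4
            exact congrArg Prod.fst h4
          · refine ⟨m a, ?_, Or.inr (Or.inl ?_)⟩
            · have h5 : t a = φ (e (m a)) := by rw [hφe, hmm]
              have h4 : φ^[4] (t a) = t a := by rw [← h]; exact hc
              rw [h5] at h4
              have h6 : φ^[4] (e (m a)) = e (m a) := by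
                apply hφinj
                rw [← iterate_succ_apply' φ 4, iterate_succ_apply φ 4]
                exact h4
              rw [hφ4] at h6
              exact congrArg Prod.fst h6
            · rw [hmm, h]
        have hA := hsqvert u hu (a, i) hz
        have hB := hsqvert u hu _ (hsqcyc u hu n (a, i) hz)
        rw [show φ^[n] (a, i) = (b, j) from hn] at hB
        exact hA.symm.trans hB
  have hall : ∀ a b, ρ.SameCycle a b := by
    intro a b
    induction hlink a b with
    | rel x y h => exact hlinkcyc x y h
    | refl x => exact SameCycle.refl _ _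
    | symm x y _ ih => exact ih.symm
    | trans x y z _ _ ih1 ih2 => exact ih1.trans ih2
  refine isHamiltonian_of_fullCycle (mapGraph α) ρ ?_ hall hcard
  intro v
  have hne : v ≠ ρ v := by
    intro hfix
    obtain ⟨b, hb⟩ := Fintype.exists_ne_of_one_lt_card (by omega : 1 < Fintype.card V) v
    exact hb ((hall v b).eq_of_left hfix.symm).symm
  rw [mapGraph, SimpleGraph.fromRel_adj]
  refine ⟨hne, Or.inl ?_⟩
  rcases hρ1 v with h | h
  · refine ⟨ι v, (α (d v)).2, ?_⟩
    rw [h]
    exact (Prod.mk.eta).symm
  · refine ⟨ι v + 1, (α (e v)).2, ?_⟩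
    rw [h]
    exact (Prod.mk.eta).symm

end Vale.Agent.Lib.P039
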