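import Mathlib

/-!
# Toggling a permutation along a transposition, and Hamiltonian cycles from full cycles
-/

namespace Vale.Agent.Lib.P039

open Equiv Equiv.Perm

variable {V : Type} [Fintype V] [DecidableEq V]

/-- If `x, y` lie on different cycles of `ρ`, they lie on one cycle of `ρ * swap x y`. -/
lemma sameCycle_toggle_self (ρ : Perm V) {x y : V} (hxy : ¬ ρ.SameCycle x y) :
    (ρ * swap x y).SameCycle x y := by
  classical
  by_contra hcon
  set ρ' := ρ * swap x y with hρ'
  have hne : x ≠ y := by
    rintro rfl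
    exact hxy (SameCycle.refl _ _)
  have h1 : ρ' x = ρ y := by simp [hρ']
  have hstep : ∀ j : ℕ, ρ'.SameCycle x ((ρ ^ (j + 1)) y) := by
    intro j
    induction j with
    | zero =>
      have : ρ'.SameCycle x (ρ' x) := (sameCycle_apply_right).2 (SameCycle.refl _ _)
      simpa [h1] using this
    | succ j ih =>
      set z := (ρ ^ (j + 1)) y with hz
      have hzx : z ≠ x := by
        intro hzx
        apply hxy
        rw [← hzx, hz]
        exact (SameCycle.symm ⟨((j + 1 : ℕ) : ℤ), by rw [zpow_natCast]⟩)
      have hzy : z ≠ y := by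
        intro hzy
        exact hcon (hzy ▸ ih)
      have h2 : ρ' z = ρ z := by
        simp [hρ', swap_apply_of_ne_of_ne hzx hzy]
      have h3 : (ρ ^ (j + 1 + 1)) y = ρ' z := by
        rw [h2, hz, pow_succ' ρ (j + 1)]
        rfl
      rw [h3]
      exact (sameCycle_apply_right).2 ih
  have hord := orderOf_pos ρ
  obtain ⟨k, hk⟩ : ∃ k, orderOf ρ = k + 1 := ⟨orderOf ρ - 1, by omega⟩
  have := hstep k
  rw [← hk, pow_orderOf_eq_one] at this
  exact hcon (by simpa using this)

/-- Toggling two points on different cycles preserves all same-cycle relations. -/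
lemma sameCycle_toggle_mono (ρ : Perm V) {x y : V} (hxy : ¬ ρ.SameCycle x y) {a b : V}
    (hab : ρ.SameCycle a b) : (ρ * swap x y).SameCycle a b := by
  classical
  set ρ' := ρ * swap x y with hρ'
  have hxy' : ρ'.SameCycle x y := sameCycle_toggle_self ρ hxy
  have hstep : ∀ z, ρ'.SameCycle z (ρ z) := by
    intro z
    by_cases hzx : z = x
    · subst hzx
      have h1 : ρ' y = ρ z := by simp [hρ']
      rw [← h1]
      exact hxy'.trans ((sameCycle_apply_right).2 (SameCycle.refl _ _))
    · by_cases hzy : z = y
      · subst hzy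
        have h1 : ρ' x = ρ z := by simp [hρ']
        rw [← h1]
        exact hxy'.symm.trans ((sameCycle_apply_right).2 (SameCycle.refl _ _))
      · have h1 : ρ' z = ρ z := by
          simp [hρ', swap_apply_of_ne_of_ne hzx hzy]
        rw [← h1]
        exact (sameCycle_apply_right).2 (SameCycle.refl _ _)
  have hpow : ∀ (n : ℕ) (z : V), ρ'.SameCycle z ((ρ ^ n) z) := by
    intro n
    induction n with
    | zero =>
      intro z
      rw [pow_zero]
      exact SameCycle.refl _ _
    | succ n ih =>
      intro z
      have h3 : (ρ ^ (n + 1)) z = ρ ((ρ ^ n) z) := by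
        rw [pow_succ']
        rfl
      rw [h3]
      exact (ih z).trans (hstep _)
  obtain ⟨i, _, hi⟩ := hab.exists_pow_eq'
  rw [← hi]
  exact hpow i a

/-- A permutation with a single full cycle, moving along edges of `G`, on at least three
vertices, gives a Hamiltonian cycle of `G`. -/
theorem isHamiltonian_of_fullCycle (G : SimpleGraph V) (ρ : Perm V)
    (hadj : ∀ v, G.Adj v (ρ v)) (hs : ∀ a b, ρ.SameCycle a b)
    (hc : 3 ≤ Fintype.card V) : G.IsHamiltonian := by
  classical
  intro _
  have hnon : Nonempty V := by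
    apply Fintype.card_pos_iff.1
    omega
  obtain ⟨a⟩ := hnon
  have hcyc : ρ.IsCycleOn (Finset.univ : Finset V) := by
    refine ⟨?_, ?_⟩
    · simp
    · intro x _ y _
      exact hs x y
  have ha : a ∈ (Finset.univ : Finset V) := Finset.mem_univ a
  have hcard : (Finset.univ : Finset V).card = Fintype.card V := Finset.card_univ
  set n := Fintype.card V with hn
  have hinj : ∀ i j : ℕ, i < n → j < n → (ρ ^ i) a = (ρ ^ j) a → i = j := by
    intro i j hi hj hij
    have := (hcyc.pow_apply_eq_pow_apply ha).1 hij
    rw [hcard] at this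
    exact Nat.ModEq.eq_of_lt_of_lt this hi hj
  have hwalk : ∀ k : ℕ, ∃ w : G.Walk a ((ρ ^ k) a),
      w.support = (List.range (k + 1)).map (fun i => (ρ ^ i) a) ∧
      ∀ e ∈ w.edges, ∃ i < k, e = s((ρ ^ i) a, (ρ ^ (i + 1)) a) := by
    intro k
    induction k with
    | zero =>
      refine ⟨SimpleGraph.Walk.nil.copy rfl (by simp), ?_, ?_⟩
      · simp
      · simp
    | succ k ih =>
      obtain ⟨w, hw1, hw2⟩ := ih
      have hstep : (ρ ^ (k + 1)) a = ρ ((ρ ^ k) a) := by
        rw [pow_succ']
        rfl
      have hA : G.Adj ((ρ ^ k) a) ((ρ ^ (k + 1)) a) := by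
        rw [hstep]
        exact hadj _
      refine ⟨w.concat hA, ?_, ?_⟩
      · rw [SimpleGraph.Walk.support_concat, hw1, List.range_succ (n := k + 1)]
        simp
      · intro e he
        rw [SimpleGraph.Walk.edges_concat] at he
        simp only [List.concat_eq_append, List.mem_append, List.mem_singleton] at he
        rcases he with he | he
        · obtain ⟨i, hi, hie⟩ := hw2 e he
          exact ⟨i, by omega, hie⟩
        · exact ⟨k, by omega, he⟩
  obtain ⟨m, hm⟩ : ∃ m, n = m + 1 := ⟨n - 1, by omega⟩
  obtain ⟨W, hW1, hW2⟩ := hwalk m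
  have hWpath : W.IsPath := by
    rw [SimpleGraph.Walk.isPath_def, hW1]
    refine List.Nodup.map_on ?_ List.nodup_range
    intro i hi j hj hij
    rw [List.mem_range] at hi hj
    exact hinj i j (by omega) (by omega) hij
  have hclose : (ρ ^ (m + 1)) a = a := by
    rw [← hm]
    have := hcyc.pow_card_apply ha
    rwa [hcard] at this
  have hA : G.Adj ((ρ ^ m) a) a := by
    have h := hadj ((ρ ^ m) a)
    have hstep : (ρ ^ (m + 1)) a = ρ ((ρ ^ m) a) := by
      rw [pow_succ']
      rfl
    rw [← hstep, hclose] at h
    exact h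
  refine ⟨_, SimpleGraph.Walk.cons hA W, ?_⟩
  rw [SimpleGraph.Walk.isHamiltonianCycle_iff_isCycle_and_support_count_tail_eq_one]
  refine ⟨?_, ?_⟩
  · rw [SimpleGraph.Walk.cons_isCycle_iff]
    refine ⟨hWpath, ?_⟩
    intro hmem
    obtain ⟨i, hi, hie⟩ := hW2 _ hmem
    rw [Sym2.eq_iff] at hie
    rcases hie with ⟨h1, _⟩ | ⟨h1, h2⟩
    · have := hinj m i (by omega) (by omega) h1
      omega
    · -- `a = ρ ^ i a` forces `i = 0`
      have hi0 : i = 0 := by
        have := hinj 0 i (by omega) (by omega) (by simpa using h2)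
        omega
      subst hi0
      have := hinj m 1 (by omega) (by omega) (by simpa using h1)
      omega
  · intro b
    simp only [SimpleGraph.Walk.support_cons, List.tail_cons]
    have hmem : b ∈ W.support := by
      obtain ⟨i, hi, hib⟩ := hcyc.exists_pow_eq ha (Finset.mem_univ b)
      rw [hW1, List.mem_map]
      refine ⟨i, ?_, hib⟩
      rw [List.mem_range]
      rw [hcard] at hi
      omega
    have hnd : W.support.Nodup := hWpath.support_nodup
    exact List.count_eq_one_of_mem hnd hmem

end Vale.Agent.Lib.P039
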